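import Vale.Agent.P230.Lattice

open Vale.Agent.P230

theorem Vale.Agent.Results.P230.Full.result :
    (∃ c C : ℝ, 0 < c ∧ 0 < C ∧ ∃ n₀ : ℕ, ∀ n : ℕ, n₀ ≤ n →
      ENNReal.ofReal (c * n * Real.log n) ≤ ThetaL n ∧
      ThetaL n ≤ ENNReal.ofReal (C * n * Real.log n) ∧
      ENNReal.ofReal (c * n * Real.log n) ≤ ThetaT n ∧
      ThetaT n ≤ ENNReal.ofReal (C * n * Real.log n) ∧
      ∃ K : Set (E n), IsConvexBody K ∧ (∀ y ∈ K, -y ∈ K) ∧
        ENNReal.ofReal (c * n * Real.log n) ≤ thetaT K ∧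
        ENNReal.ofReal (c * n * Real.log n) ≤ thetaL K) ∧
    ¬ ∃ C : ℝ, ∀ n : ℕ, 1 ≤ n → ∀ K : Set (E n), IsConvexBody K →
      thetaT K ≤ ENNReal.ofReal (C * n) := by
  have hlog : ∀ t : ℝ, ∀ n : ℕ, ⌈Real.exp t⌉₊ ≤ n → t ≤ Real.log n := fun t n hn =>
    (Real.le_log_iff_exp_le ((Real.exp_pos t).trans_le (Nat.ceil_le.1 hn))).2 (Nat.ceil_le.1 hn)
  constructor
  · obtain ⟨C, hC, n₀, h⟩ := thetaL_le
    refine ⟨1 / (1180032 * 1664), C, by norm_num, hC, max n₀ ⌈Real.exp (10 ^ 7)⌉₊, fun n hn => ?_⟩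
    obtain ⟨K, h1, h2, h3⟩ := exists_bad_body (hlog _ n ((le_max_right _ _).trans hn))
    have h4 := h3.trans (thetaT_le_thetaL' K)
    have h5 := h n ((le_max_left _ _).trans hn)
    exact ⟨h4.trans (le_iSup₂_of_le (f := fun K (_ : IsConvexBody K) => thetaL K) K h1 le_rfl), h5,
      h3.trans (le_iSup₂_of_le (f := fun K (_ : IsConvexBody K) => thetaT K) K h1 le_rfl),
      le_trans (iSup₂_mono fun K _ => thetaT_le_thetaL' K) h5, K, h1, h2, h3, h4⟩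
  · rintro ⟨C, h⟩
    let n := ⌈Real.exp (max (10 ^ 7) (1180032 * 1664 * (|C| + 1)))⌉₊
    have e := hlog _ n le_rfl
    have hn : 1 ≤ n := Nat.ceil_pos.2 (Real.exp_pos _)
    have hn' : (0 : ℝ) < n := by exact_mod_cast hn
    obtain ⟨K, h1, -, h3⟩ := exists_bad_body ((le_max_left _ _).trans e)
    have h4 := (h3.trans (h n hn K h1)).trans
      (ENNReal.ofReal_le_ofReal (mul_le_mul_of_nonneg_right (le_abs_self C) hn'.le))
    rw [ENNReal.ofReal_le_ofReal_iff (by positivity)] at h4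
    have h5 := mul_le_mul_of_nonneg_left ((le_max_right _ _).trans e) hn'.le
    nlinarith
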